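import Vale.Agent.P153D.BStmt

/-! The second moment of the height at a vertex of a finite domain. -/

open MeasureTheory Filter Topology

noncomputable section

namespace Vale.Agent.P153V

open Vale.Agent.P153 Vale.Agent.P153D

/-- The second moment of `h = 2 k + 1` at a vertex `x` of a domain whose complement contains
`x + (n, 0)` is at most `(36 σ ^ 2 / π + ε) log n` for large `n`, uniformly. -/
def VarLe (σ : ℝ) : Prop :=
  ∀ ε : ℝ, 0 < ε → ∀ᶠ n : ℕ in atTop, ∀ (D : Finset (ℤ × ℤ)) (ξ : Cfg) (x : ℤ × ℤ), Out D →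
    (∀ z ∉ D, ξ z = 0 ∨ ξ z = -1) → x + ((n : ℤ), 0) ∉ D →
    avD D ξ (fun k => (2 * (k x : ℝ) + 1) ^ 2) ≤ (36 * σ ^ 2 / Real.pi + ε) * Real.log n

end Vale.Agent.P153V
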