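import Vale.Agent.P153.EG3
import Vale.Agent.P153D.Stmt

/-! Copy the proof of `sum_split` (P153/EG2) without characters: fibres of `k ↦ ab ∘ k`, on a fibre `k ↦ sg ∘ k` is a bijection onto
the finite set of `GS L a` with inverse `eg2_mk a` (copy `eg2_sg`, the first and last parts of `eg2_mem`; `eg2_ab_mk`, `eg2_sg_mk`, `eg2_mk_self`). -/

open MeasureTheory Filter Topology

noncomputable section

namespace Vale.Agent.P153V

open Vale.Agent.P153 Vale.Agent.P153D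

theorem v1_sg {L : Finset (ℤ × ℤ)} {k : Cfg} (h1 : Lip k) (h4 : ∀ x ∉ L, k x ≤ 0) :
    (fun x => sg (k x)) ∈ GS L fun x => ab (k x) := by
  refine ⟨fun x hx => ?_, fun x y e ha => ?_⟩
  · exact eg2_sg0 (h4 x hx)
  · have h5 := eg2_lip h1 x y e
    have ha' : ab (k x) ≠ 0 := ha
    simp only [ab, abs_le] at ha' h5
    show sg (k y) = sg (k x)
    rcases le_or_gt (k x) 0 with h6 | h6
    · rw [eg2_sg0 h6, eg2_sg0 (by omega)]
    · rw [eg2_sg1 h6, eg2_sg1 (by omega)]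

theorem v1_mem {L : Finset (ℤ × ℤ)} {a : Cfg} (h1 : Lip a) (h2 : ∀ x, 0 ≤ a x)
    {s : ℤ × ℤ → ZMod 2} (hs : s ∈ GS L a) : Lip (eg2_mk a s) ∧ ∀ x ∉ L, eg2_mk a s x ≤ 0 := by
  obtain ⟨s1, s2⟩ := hs
  refine ⟨eg2_lip' fun x y e => ?_, fun x hx => ?_⟩
  · have h4 := eg2_lip h1 x y e
    have h5 := s2 x y e
    have h6 := s2 y x (eg2_sym e)
    simp only [eg2_mk, abs_le] at h4 ⊢
    by_cases e1 : s y = s x
    · rw [e1]
      split_ifs <;> omega
    · have a1 : a x = 0 := by_contra fun c => e1 (h5 c)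
      have a2 : a y = 0 := by_contra fun c => e1 (h6 c).symm
      rw [a1, a2]
      split_ifs <;> omega
  · simp only [eg2_mk]
    rw [if_pos (s1 x hx)]
    exact neg_nonpos.2 (h2 x)

theorem split {L : Finset (ℤ × ℤ)} {A K : Finset Cfg} (hA : ∀ a ∈ A, Lip a ∧ 0 ≤ a)
    (hK : ∀ k, k ∈ K ↔ Lip k ∧ (fun x => ab (k x)) ∈ A ∧ ∀ x ∉ L, k x ≤ 0) (g : Cfg → ℝ) :
    ∑ k ∈ K, g (fun x => ab (k x)) = ∑ a ∈ A, g a * wS L a := by
  classical
  rw [← Finset.sum_fiberwise_of_maps_to (g := fun (k : Cfg) (x : ℤ × ℤ) => ab (k x))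
    (t := A) fun k hk => ((hK k).1 hk).2.1]
  refine Finset.sum_congr rfl fun a ha => ?_
  have hf : (GS L a : Set (ℤ × ℤ → ZMod 2)).Finite := by
    have := GS_finite L a
    exact Set.toFinite _
  have h0 : ∀ x, 0 ≤ a x := (hA a ha).2
  have hw : wS L a = ∑ _s ∈ hf.toFinset, (1 : ℝ) := by
    rw [Finset.sum_const, nsmul_eq_mul, mul_one, ← Set.ncard_eq_toFinset_card _ hf,
      ← Nat.card_coe_set_eq]
    rfl
  rw [hw, Finset.mul_sum]
  refine Finset.sum_nbij' (fun k x => sg (k x)) (eg2_mk a) (fun k hk => ?_) (fun s hs => ?_)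
    (fun k hk => ?_) (fun s _ => eg2_sg_mk h0 s) fun k hk => ?_
  · obtain ⟨h1, h2⟩ := Finset.mem_filter.1 hk
    rw [Set.Finite.mem_toFinset, ← h2]
    exact v1_sg ((hK k).1 h1).1 ((hK k).1 h1).2.2
  · have h1 := v1_mem (hA a ha).1 h0 (s := s) (by simpa using hs)
    exact Finset.mem_filter.2 ⟨(hK _).2 ⟨h1.1, by rw [eg2_ab_mk h0 s]; exact ha, h1.2⟩,
      eg2_ab_mk h0 s⟩
  · rw [← (Finset.mem_filter.1 hk).2]
    exact eg2_mk_self k
  · rw [(Finset.mem_filter.1 hk).2, mul_one]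

end Vale.Agent.P153V
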