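import Vale.Agent.P153V.V1

/-! Two Holley inequalities: copy `avG_mono` (P153/EG3), `four_functions_theorem`; weight one for `hol_k`,
weight `if 0 ≤ a then wS L a else 0` with `wS_sup` and `split` (also with `g = 1`) for `hol_ab`. -/

open MeasureTheory Filter Topology

noncomputable section

namespace Vale.Agent.P153V

open Vale.Agent.P153 Vale.Agent.P153D

open Classical in
theorem v2_gen {K₁ K₂ : Finset Cfg} (h : ∀ a ∈ K₁, ∀ b ∈ K₂, a ⊓ b ∈ K₁ ∧ a ⊔ b ∈ K₂)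
    {g w : Cfg → ℝ} (hg : Monotone g) (g0 : ∀ a, 0 ≤ g a) (w0 : ∀ a, 0 ≤ w a)
    (hw : ∀ a b, w a * w b ≤ w (a ⊓ b) * w (a ⊔ b)) :
    (∑ k ∈ K₁, g k * w k) * ∑ k ∈ K₂, w k ≤ (∑ k ∈ K₁, w k) * ∑ k ∈ K₂, g k * w k := by
  have gw : ∀ a, 0 ≤ g a * w a := fun a => mul_nonneg (g0 a) (w0 a)
  refine (four_functions_theorem (fun a => g a * w a) w w (fun a => g a * w a) gw w0 w0 gw
    (fun a a' => ?_) K₁ K₂).trans (mul_le_mul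
      (Finset.sum_le_sum_of_subset_of_nonneg (fun z hz => ?_) fun a _ _ => w0 a)
      (Finset.sum_le_sum_of_subset_of_nonneg (fun z hz => ?_) fun a _ _ => gw a)
      (Finset.sum_nonneg fun a _ => gw a) (Finset.sum_nonneg fun a _ => w0 a))
  · calc g a * w a * w a' = g a * (w a * w a') := by ring
      _ ≤ g (a ⊔ a') * (w (a ⊓ a') * w (a ⊔ a')) :=
        mul_le_mul (hg le_sup_left) (hw a a') (mul_nonneg (w0 _) (w0 _)) (g0 _)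
      _ = _ := by ring
  · obtain ⟨a, ha, b, hb, rfl⟩ := Finset.mem_infs.1 hz
    exact (h a ha b hb).1
  · obtain ⟨a, ha, b, hb, rfl⟩ := Finset.mem_sups.1 hz
    exact (h a ha b hb).2

theorem hol_k {K₁ K₂ : Finset Cfg} (h : ∀ a ∈ K₁, ∀ b ∈ K₂, a ⊓ b ∈ K₁ ∧ a ⊔ b ∈ K₂)
    {g : Cfg → ℝ} (hg : Monotone g) (g0 : ∀ a, 0 ≤ g a) :
    (∑ k ∈ K₁, g k) * K₂.card ≤ K₁.card * ∑ k ∈ K₂, g k := by
  have := v2_gen h hg g0 (w := fun _ => 1) (fun _ => zero_le_one) fun _ _ => le_rfl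
  simpa only [mul_one, Finset.sum_const, nsmul_eq_mul] using this

theorem hol_ab {L : Finset (ℤ × ℤ)} {A₁ A₂ K₁ K₂ : Finset Cfg} (hA₁ : ∀ a ∈ A₁, Lip a ∧ 0 ≤ a)
    (hA₂ : ∀ a ∈ A₂, Lip a ∧ 0 ≤ a)
    (hK₁ : ∀ k, k ∈ K₁ ↔ Lip k ∧ (fun x => ab (k x)) ∈ A₁ ∧ ∀ x ∉ L, k x ≤ 0)
    (hK₂ : ∀ k, k ∈ K₂ ↔ Lip k ∧ (fun x => ab (k x)) ∈ A₂ ∧ ∀ x ∉ L, k x ≤ 0)
    (h : ∀ a ∈ A₁, ∀ b ∈ A₂, a ⊓ b ∈ A₁ ∧ a ⊔ b ∈ A₂)
    {g : Cfg → ℝ} (hg : Monotone g) (g0 : ∀ a, 0 ≤ g a) :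
    (∑ k ∈ K₁, g fun x => ab (k x)) * K₂.card ≤ K₁.card * ∑ k ∈ K₂, g fun x => ab (k x) := by
  classical
  obtain ⟨w, hw⟩ : ∃ w : Cfg → ℝ, ∀ a, w a = if 0 ≤ a then wS L a else 0 := ⟨_, fun _ => rfl⟩
  have w0 : ∀ a, 0 ≤ w a := fun a => by
    rw [hw]
    split_ifs
    exacts [Nat.cast_nonneg _, le_rfl]
  have e1 : ∀ {A K : Finset Cfg}, (∀ a ∈ A, Lip a ∧ 0 ≤ a) →
      (∀ k, k ∈ K ↔ Lip k ∧ (fun x => ab (k x)) ∈ A ∧ ∀ x ∉ L, k x ≤ 0) → ∀ g : Cfg → ℝ,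
      ∑ k ∈ K, g (fun x => ab (k x)) = ∑ a ∈ A, g a * w a := fun hA hK g =>
    (split hA hK g).trans (Finset.sum_congr rfl fun a ha => by rw [hw, if_pos (hA a ha).2])
  have e2 : ∀ {A K : Finset Cfg}, (∀ a ∈ A, Lip a ∧ 0 ≤ a) →
      (∀ k, k ∈ K ↔ Lip k ∧ (fun x => ab (k x)) ∈ A ∧ ∀ x ∉ L, k x ≤ 0) →
      (K.card : ℝ) = ∑ a ∈ A, w a := fun hA hK => by
    simpa only [one_mul, mul_one, Finset.sum_const, nsmul_eq_mul] using e1 hA hK fun _ => 1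
  rw [e1 hA₁ hK₁, e1 hA₂ hK₂, e2 hA₁ hK₁, e2 hA₂ hK₂]
  refine v2_gen h hg g0 w0 fun a b => ?_
  by_cases k1 : 0 ≤ a
  · by_cases k2 : 0 ≤ b
    · rw [hw, hw, hw, hw, if_pos k1, if_pos k2, if_pos (le_inf k1 k2),
        if_pos (k1.trans le_sup_left)]
      exact wS_sup L k1 k2
    · rw [hw b, if_neg k2, mul_zero]
      exact mul_nonneg (w0 _) (w0 _)
  · rw [hw a, if_neg k1, zero_mul]
    exact mul_nonneg (w0 _) (w0 _)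

end Vale.Agent.P153V
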