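import Vale.Agent.P153V.V2

/-! First comparison. Take `M = S.sup fun k => D.sup fun z => (k z).natAbs`; `hol_k` with `K₁ = S`, `K₂ = admG M L D`
(`mem_admG`, `a7_inf` for Lipschitz inf and sup), `g k = (max (k x) 0) ^ 2`, then `max t 0 ≤ max (ab t) 0 + 1`. -/

open MeasureTheory Filter Topology

noncomputable section

namespace Vale.Agent.P153V

open Vale.Agent.P153 Vale.Agent.P153D

theorem low_free {D L : Finset (ℤ × ℤ)} (hL : D ⊆ L) {ξ : Cfg} (hξ : ∀ z ∉ D, ξ z = 0 ∨ ξ z = -1)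
    {S : Finset Cfg} (hS : ∀ k, k ∈ S ↔ k ∈ AdmD D ξ) (x : ℤ × ℤ) : ∃ M : ℕ,
    (∑ k ∈ S, ((max (k x) 0 : ℤ) : ℝ) ^ 2) * (admG M L D).card ≤
      S.card * ∑ k ∈ admG M L D, ((max (ab (k x)) 0 + 1 : ℤ) : ℝ) ^ 2 := by
  classical
  refine ⟨S.sup fun k => D.sup fun z => (k z).natAbs, ?_⟩
  set M : ℕ := S.sup fun k => D.sup fun z => (k z).natAbs with hM
  have hb : ∀ a ∈ S, ∀ z ∈ D, (a z).natAbs ≤ M := by
    intro a ha z hz
    have h1 : (a z).natAbs ≤ D.sup fun z => (a z).natAbs :=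
      Finset.le_sup (f := fun z => (a z).natAbs) hz
    have h2 : (D.sup fun z => (a z).natAbs) ≤ M :=
      Finset.le_sup (f := fun k : Cfg => D.sup fun z => (k z).natAbs) ha
    exact h1.trans h2
  have hcl : ∀ a ∈ S, ∀ b ∈ admG M L D, a ⊓ b ∈ S ∧ a ⊔ b ∈ admG M L D := by
    intro a ha b hb'
    have hba := hb a ha
    rw [hS] at ha
    obtain ⟨haL, haD⟩ := ha
    rw [mem_admG] at hb'
    obtain ⟨hbL, hbM, hbD, hbLL⟩ := hb'
    have hl := a7_inf haL hbL
    refine ⟨(hS _).2 ⟨hl.1, fun z hz => ?_⟩, mem_admG.2 ⟨hl.2, fun z => ?_, fun z hz => ?_, fun z hz => ?_⟩⟩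
    · have h1 := haD z hz
      have h2 := hbD z hz
      have h3 := hξ z hz
      rw [Pi.inf_apply]
      omega
    · have h2 := hbM z
      rw [Pi.sup_apply]
      by_cases hz : z ∈ D
      · have h1 := hba z hz
        omega
      · have h1 := haD z hz
        have h3 := hξ z hz
        omega
    · have h1 := haD z hz
      have h2 := hbD z hz
      have h3 := hξ z hz
      rw [Pi.sup_apply]
      omega
    · have hz' : z ∉ D := fun h => hz (hL h)
      have h1 := haD z hz'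
      have h2 := hbLL z hz
      have h3 := hξ z hz'
      rw [Pi.sup_apply]
      omega
  have hg : Monotone fun k : Cfg => ((max (k x) 0 : ℤ) : ℝ) ^ 2 := by
    intro a b hab
    have h1 : a x ≤ b x := hab x
    have h2 : (0 : ℝ) ≤ ((max (a x) 0 : ℤ) : ℝ) := by exact_mod_cast le_max_right _ _
    have h3 : ((max (a x) 0 : ℤ) : ℝ) ≤ ((max (b x) 0 : ℤ) : ℝ) := by
      exact_mod_cast max_le_max h1 le_rfl
    exact pow_le_pow_left₀ h2 h3 2
  have key := hol_k hcl hg fun a => sq_nonneg _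
  refine key.trans (mul_le_mul_of_nonneg_left (Finset.sum_le_sum fun k _ => ?_) (Nat.cast_nonneg _))
  have h2 : (0 : ℝ) ≤ ((max (k x) 0 : ℤ) : ℝ) := by exact_mod_cast le_max_right _ _
  have h3 : (max (k x) 0 : ℤ) ≤ max (ab (k x)) 0 + 1 := by
    simp only [ab]
    omega
  exact pow_le_pow_left₀ h2 (by exact_mod_cast h3) 2

end Vale.Agent.P153V
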