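import Vale.Agent.P153V.V2

/-! Second comparison. `hol_ab` with `L = (hexA 0 R).erase y`, `A₁ = abS M D`, `K₁ = admG M L D` (`eg2_ab`, `mem_abS`, `mem_admG`),
`T` the filtered set, `K₂ = T.image fun k z => k z - j` (injective map), `A₂ = K₂.image fun k z => ab (k z)`.
First prove `k ∈ K₂ ↔ Lip k ∧ (∀ z ∉ hexA 0 R, k z = -j) ∧ k y = 0` and `a ∈ A₂ ↔ Lip a ∧ 0 ≤ a ∧ (∀ z ∉ hexA 0 R, a z = j) ∧ a y = 0`
(for the converse take `k = -a`). `g a = (max (a x) 0 + 1) ^ 2`; finally `max (ab t) 0 ≤ |t|`. `a7_inf` for Lipschitz inf and sup. -/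

open MeasureTheory Filter Topology

noncomputable section

namespace Vale.Agent.P153V

open Vale.Agent.P153 Vale.Agent.P153D

open Classical in
theorem free_fib {D : Finset (ℤ × ℤ)} {R : ℕ} (hD : D ⊆ hexA 0 R) {y : ℤ × ℤ} (hy : y ∉ D)
    (M : ℕ) (x : ℤ × ℤ) {j : ℤ} (hj : 0 ≤ j) :
    (∑ k ∈ admG M ((hexA 0 R).erase y) D, ((max (ab (k x)) 0 + 1 : ℤ) : ℝ) ^ 2) *
        ((admA 0 R).filter fun k => k y = j).card ≤
      (admG M ((hexA 0 R).erase y) D).card *
        ∑ k ∈ (admA 0 R).filter (fun k => k y = j), ((|k x - k y| + 1 : ℤ) : ℝ) ^ 2 := by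
  have hx0 : ∀ z : ℤ × ℤ, z ∉ hexA 0 R ↔ (R : ℤ) < hx (z - 0) := fun z => by
    rw [mem_hexA, not_le]
  have hL : ∀ z : ℤ × ℤ, z ∉ (hexA 0 R).erase y ↔ z = y ∨ z ∉ hexA 0 R := fun z => by
    rw [Finset.mem_erase, not_and_or, not_not]
  have hinj : Function.Injective fun (k : Cfg) (z : ℤ × ℤ) => k z - j := fun k l e =>
    funext fun z => sub_left_injective (congrFun e z)
  obtain ⟨T, hT⟩ : ∃ T, T = (admA 0 R).filter fun k => k y = j := ⟨_, rfl⟩
  have mT : ∀ k, k ∈ T ↔ (Lip k ∧ ∀ z ∉ hexA 0 R, k z = 0) ∧ k y = j := fun k => by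
    rw [hT, Finset.mem_filter, mem_admA]
    simp only [hx0]
    rfl
  have mK : ∀ k : Cfg, k ∈ T.image (fun (k : Cfg) (z : ℤ × ℤ) => k z - j) ↔
      Lip k ∧ (∀ z ∉ hexA 0 R, k z = -j) ∧ k y = 0 := fun k => by
    rw [Finset.mem_image]
    constructor
    · rintro ⟨l, hl, rfl⟩
      obtain ⟨⟨h1, h2⟩, h3⟩ := (mT l).1 hl
      refine ⟨fun z => ?_, fun z hz => ?_, ?_⟩
      · simpa only [sub_sub_sub_cancel_right] using h1 z
      · show l z - j = -j
        rw [h2 z hz, zero_sub]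
      · show l y - j = 0
        rw [h3, sub_self]
    · rintro ⟨h1, h2, h3⟩
      refine ⟨fun z => k z + j, (mT _).2 ⟨⟨fun z => ?_, fun z hz => ?_⟩, ?_⟩,
        funext fun z => add_sub_cancel_right _ _⟩
      · simpa only [add_sub_add_right_eq_sub] using h1 z
      · show k z + j = 0
        rw [h2 z hz, neg_add_cancel]
      · show k y + j = j
        rw [h3, zero_add]
  obtain ⟨K, hK⟩ : ∃ K, K = T.image fun (k : Cfg) (z : ℤ × ℤ) => k z - j := ⟨_, rfl⟩
  rw [← hK] at mK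
  have mA : ∀ a : Cfg, a ∈ K.image (fun (k : Cfg) (z : ℤ × ℤ) => ab (k z)) ↔
      Lip a ∧ (∀ z, 0 ≤ a z) ∧ (∀ z ∉ hexA 0 R, a z = j) ∧ a y = 0 := fun a => by
    rw [Finset.mem_image]
    constructor
    · rintro ⟨k, hk, rfl⟩
      obtain ⟨h1, h2, h3⟩ := (mK k).1 hk
      refine ⟨fun z => ?_, fun z => ?_, fun z hz => ?_, ?_⟩
      · have := h1 z
        simp only [ab, abs_le] at this ⊢
        omega
      · simp only [ab]
        omega
      · have := h2 z hz
        simp only [ab]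
        omega
      · simp only [ab]
        omega
    · rintro ⟨h1, h2, h3, h4⟩
      refine ⟨fun z => -a z, (mK _).2 ⟨fun z => ?_, fun z hz => ?_, ?_⟩, funext fun z => ?_⟩
      · have := h1 z
        simp only [abs_le] at this ⊢
        omega
      · show -a z = -j
        rw [h3 z hz]
      · show -a y = 0
        rw [h4, neg_zero]
      · have := h2 z
        simp only [ab]
        omega
  obtain ⟨A, hA⟩ : ∃ A, A = K.image fun (k : Cfg) (z : ℤ × ℤ) => ab (k z) := ⟨_, rfl⟩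
  rw [← hA] at mA
  have h := hol_ab (L := (hexA 0 R).erase y) (A₁ := abS M D) (A₂ := A)
    (K₁ := admG M ((hexA 0 R).erase y) D) (K₂ := K)
    (fun a ha => ⟨(mem_abS.1 ha).1, fun z => ((mem_abS.1 ha).2.1 z).1⟩)
    (fun a ha => ⟨((mA a).1 ha).1, ((mA a).1 ha).2.1⟩) (fun k => ?_) (fun k => ?_)
    (fun a ha b hb => ?_) (g := fun a => ((max (a x) 0 + 1 : ℤ) : ℝ) ^ 2) (fun a b hab => ?_)
    fun a => sq_nonneg _
  · rw [← hT]
    rw [hK, Finset.card_image_of_injective _ hinj, Finset.sum_image fun _ _ _ _ e => hinj e] at h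
    refine h.trans (mul_le_mul_of_nonneg_left (Finset.sum_le_sum fun k hk => ?_)
      (Nat.cast_nonneg _))
    have h1 : max (ab (k x - j)) 0 + 1 ≤ |k x - k y| + 1 := by
      rw [((mT k).1 hk).2]
      have h2 := le_abs_self (k x - j)
      have h3 := neg_abs_le (k x - j)
      simp only [ab]
      omega
    have h2 : (0 : ℤ) ≤ max (ab (k x - j)) 0 + 1 := by omega
    exact pow_le_pow_left₀ (Int.cast_nonneg h2) (Int.cast_le.2 h1) 2
  · refine ⟨fun hk => ⟨(mem_admG.1 hk).1, eg2_ab hk, fun z hz => ((mem_admG.1 hk).2.2.2 z hz).le⟩,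
      fun ⟨h1, h2, h3⟩ => ?_⟩
    obtain ⟨-, h4, h5⟩ := mem_abS.1 h2
    refine mem_admG.2 ⟨h1, fun z => ?_, fun z hz => ?_, fun z hz => ?_⟩
    · have := h4 z
      simp only [ab] at this
      omega
    · have := h5 z hz
      simp only [ab] at this
      omega
    · have h6 : z ∉ D := fun c => by
        rcases (hL z).1 hz with rfl | h7
        · exact hy c
        · exact h7 (hD c)
      have h7 := h5 z h6
      have h8 := h3 z hz
      simp only [ab] at h7
      omega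
  · constructor
    · intro hk
      obtain ⟨h1, h2, h3⟩ := (mK k).1 hk
      refine ⟨h1, hA ▸ Finset.mem_image_of_mem _ hk, fun z hz => ?_⟩
      rcases (hL z).1 hz with rfl | h7
      · exact h3.le
      · have := h2 z h7
        omega
    · rintro ⟨h1, h2, h3⟩
      obtain ⟨-, -, h4, h5⟩ := (mA _).1 h2
      refine (mK k).2 ⟨h1, fun z hz => ?_, ?_⟩
      · have h6 := h4 z hz
        have h7 := h3 z ((hL z).2 (Or.inr hz))
        simp only [ab] at h6
        omega
      · have h7 := h3 y ((hL y).2 (Or.inl rfl))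
        simp only [ab] at h5
        omega
  · obtain ⟨a1, a2, a3⟩ := mem_abS.1 ha
    obtain ⟨b1, b2, b3, b4⟩ := (mA b).1 hb
    refine ⟨mem_abS.2 ⟨(a7_inf a1 b1).1, fun z => ?_, fun z hz => ?_⟩,
      (mA _).2 ⟨(a7_inf a1 b1).2, fun z => ?_, fun z hz => ?_, ?_⟩⟩
    · have h1 := a2 z
      have h2 := b2 z
      simp only [Pi.inf_apply]
      omega
    · have h1 := a3 z hz
      have h2 := b2 z
      simp only [Pi.inf_apply]
      omega
    · have h1 := a2 z
      simp only [Pi.sup_apply]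
      omega
    · have h1 := a3 z fun c => hz (hD c)
      have h2 := b3 z hz
      simp only [Pi.sup_apply]
      omega
    · have h1 := a3 y hy
      simp only [Pi.sup_apply]
      omega
  · have h1 : a x ≤ b x := hab x
    have h2 : max (a x) 0 + 1 ≤ max (b x) 0 + 1 := by omega
    have h3 : (0 : ℤ) ≤ max (a x) 0 + 1 := by omega
    exact pow_le_pow_left₀ (Int.cast_nonneg h3) (Int.cast_le.2 h2) 2

end Vale.Agent.P153V
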