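import Vale.Agent.P153V.V3
import Vale.Agent.P153V.V4

/-! Sum over the value `j = k y`. With `L = (hexA 0 R).erase y`, `low_free` and `free_fib` give, after cancelling `card_admG > 0`,
`c * card (fibre j) ≤ S.card * ∑ over fibre j` for `0 ≤ j`; for `j < 0` the map `k ↦ -k` (`a3_neg`, `Finset.sum_nbij'`, `Finset.card_nbij'`) sends the fibre `j` to the fibre `-j`.
Sum with `Finset.sum_fiberwise_of_maps_to` / `Finset.card_eq_sum_card_image`, divide by `card_admA`. -/

open MeasureTheory Filter Topology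

noncomputable section

namespace Vale.Agent.P153V

open Vale.Agent.P153 Vale.Agent.P153D

theorem low_hex {D : Finset (ℤ × ℤ)} {R : ℕ} (hD : D ⊆ hexA 0 R) {y : ℤ × ℤ} (hy : y ∉ D)
    {ξ : Cfg} (hξ : ∀ z ∉ D, ξ z = 0 ∨ ξ z = -1) {S : Finset Cfg} (hS : ∀ k, k ∈ S ↔ k ∈ AdmD D ξ)
    (x : ℤ × ℤ) : ∑ k ∈ S, ((max (k x) 0 : ℤ) : ℝ) ^ 2 ≤
      S.card * avA 0 R fun k => ((|k x - k y| + 1 : ℤ) : ℝ) ^ 2 := by
  classical
  obtain ⟨M, h1⟩ := low_free (L := (hexA 0 R).erase y)
    (fun z hz => Finset.mem_erase.2 ⟨fun e => hy (e ▸ hz), hD hz⟩) hξ hS x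
  set c := ∑ k ∈ S, ((max (k x) 0 : ℤ) : ℝ) ^ 2 with hc
  set F : Cfg → ℝ := fun k => ((|k x - k y| + 1 : ℤ) : ℝ) ^ 2 with hF
  have hG : (0 : ℝ) < (admG M ((hexA 0 R).erase y) D).card := by exact_mod_cast card_admG _ _ _
  have pos : ∀ j : ℤ, 0 ≤ j → c * ((admA 0 R).filter fun k => k y = j).card ≤
      S.card * ∑ k ∈ (admA 0 R).filter (fun k => k y = j), F k := fun j hj => by
    have h2 := free_fib hD hy M x hj
    have h3 := mul_le_mul_of_nonneg_right h1
      (Nat.cast_nonneg (α := ℝ) ((admA 0 R).filter fun k => k y = j).card)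
    have h4 := mul_le_mul_of_nonneg_left h2 (Nat.cast_nonneg (α := ℝ) S.card)
    refine le_of_mul_le_mul_right ?_ hG
    simp only [hF]
    nlinarith
  have all : ∀ j : ℤ, c * ((admA 0 R).filter fun k => k y = j).card ≤
      S.card * ∑ k ∈ (admA 0 R).filter (fun k => k y = j), F k := fun j => by
    rcases le_total 0 j with hj | hj
    · exact pos j hj
    have hm : ∀ (i : ℤ) (k : Cfg), k ∈ (admA 0 R).filter (fun k => k y = i) →
        (fun z => -k z) ∈ (admA 0 R).filter (fun k => k y = -i) := fun i k hk => by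
      rw [Finset.mem_filter, mem_admA] at hk ⊢
      exact ⟨a3_neg hk.1, by simp [hk.2]⟩
    have e : ∀ G : Cfg → ℝ, (∀ k, G (fun z => -k z) = G k) →
        ∑ k ∈ (admA 0 R).filter (fun k => k y = j), G k =
        ∑ k ∈ (admA 0 R).filter (fun k => k y = -j), G k := fun G hG =>
      Finset.sum_nbij' (fun k z => -k z) (fun k z => -k z) (hm j)
        (fun k hk => by simpa using hm (-j) k hk) (fun k _ => by simp) (fun k _ => by simp)
        fun k _ => (hG k).symm
    have e1 := e (fun _ => 1) fun _ => rfl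
    have e2 := e F fun k => by
      simp only [hF]
      rw [show -k x - -k y = -(k x - k y) by ring, abs_neg]
    simp only [Finset.sum_const, nsmul_eq_mul, mul_one] at e1
    rw [e1, e2]
    exact pos (-j) (by omega)
  have hA : (0 : ℝ) < (admA 0 R).card := by exact_mod_cast card_admA _ _
  have hmap : ∀ k ∈ admA 0 R, k y ∈ (admA 0 R).image fun k => k y :=
    fun k hk => Finset.mem_image_of_mem _ hk
  have s1 := Finset.sum_fiberwise_of_maps_to hmap F
  have s2 := Finset.sum_fiberwise_of_maps_to hmap fun _ => (1 : ℝ)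
  simp only [Finset.sum_const, nsmul_eq_mul, mul_one] at s2
  rw [avA, ← mul_div_assoc, le_div_iff₀ hA, ← s1, ← s2, Finset.mul_sum, Finset.mul_sum]
  exact Finset.sum_le_sum fun j _ => all j

end Vale.Agent.P153V
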